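import Vale.Agent.P157.Final

namespace Vale.Agent.Results.P157.Parisi

open MeasureTheory Filter Topology Vale.Agent.P157

theorem result (α : ℝ) (hα : 0 < α) (f : ℝ → ℝ) (hf : Measurable f)
    (hb : ∃ b : ℝ, ∀ x, |f x| ≤ b) :
    (∀ n ζ q, Adm n ζ q → BddAbove (isingObj n ζ q)) ∧
    (∃ L : ℝ, Tendsto
        (fun N : ℕ => ∫ g, isingPressure f ⌊α * N⌋₊ N g ∂(patterns ⌊α * N⌋₊ N)) atTop (𝓝 L) ∧
      IsGLB {y | ∃ n ζ q, Adm n ζ q ∧ y = α * psi n ζ q f + isingS n ζ q} L) ∧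
    (∃ L : ℝ, Tendsto
        (fun N : ℕ => ∫ g, spherePressure f ⌊α * N⌋₊ N g ∂(patterns ⌊α * N⌋₊ N)) atTop (𝓝 L) ∧
      IsGLB {y | ∃ n ζ q, Adm n ζ q ∧ y = α * psi n ζ q f + sphereS n ζ q} L) := by
  obtain ⟨b, hb⟩ := hb
  exact ⟨fun _ _ _ h => isingObj_bdd h, ising_limit hα hf hb, sphere_limit hα hf hb⟩

end Vale.Agent.Results.P157.Parisi
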